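import Vale.Agent.P315.H659.FailTop
import Vale.Agent.P315.H801.LaneSpec

/-!
P315, row C-H3 (helper423): failures of the machines in the rounds of the active blocks only.

The number of all rounds grows with `n`, the number of the rounds of the active blocks is at most
`R * Dl`; the certificates are needed in active blocks only.
-/

set_option autoImplicit false

open Finset

namespace Vale.Agent.P315.H423

open C
open H731 (av)
open H220 (encQ)
open H801 (rk blk actD nodeD cdiv)
open H659 (Ix toRnd pcT pcB pcB_eq pcB_nonneg pcB_mean FailP ownHist fail_region)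

/-- The rounds before `NR` which lie in active blocks with rank below `R`. -/
def roundsA (Dl o R NR : ℕ) (act : ℕ → Prop) [DecidablePred act] : Finset ℕ :=
  (range NR).filter fun κ => act (blk Dl o κ) ∧ rk act (blk Dl o κ) < R

theorem mem_roundsA {Dl o R NR κ : ℕ} {act : ℕ → Prop} [DecidablePred act] :
    κ ∈ roundsA Dl o R NR act ↔ κ < NR ∧ act (blk Dl o κ) ∧ rk act (blk Dl o κ) < R := by
  unfold roundsA
  rw [mem_filter, mem_range]

theorem rk_succ {act : ℕ → Prop} [DecidablePred act] {j : ℕ} (h : act j) :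
    rk act (j + 1) = rk act j + 1 := by
  unfold rk
  rw [List.range_succ, List.filter_append, List.length_append]
  simp [h]

theorem rk_mono {act : ℕ → Prop} [DecidablePred act] {j j' : ℕ} (h : j ≤ j') :
    rk act j ≤ rk act j' := by
  unfold rk
  obtain ⟨d, rfl⟩ := Nat.exists_eq_add_of_le h
  rw [List.range_add, List.filter_append, List.length_append]
  omega

/-- The rank is injective on the active blocks. -/
theorem rk_inj {act : ℕ → Prop} [DecidablePred act] {j j' : ℕ} (h : act j) (h' : act j')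
    (he : rk act j = rk act j') : j = j' := by
  rcases Nat.lt_trichotomy j j' with hlt | heq | hlt
  · have h1 := rk_mono (act := act) (show j + 1 ≤ j' by omega)
    rw [rk_succ h] at h1
    omega
  · exact heq
  · have h1 := rk_mono (act := act) (show j' + 1 ≤ j by omega)
    rw [rk_succ h'] at h1
    omega

/-- **At most `R * Dl` rounds matter.** -/
theorem card_roundsA_le {Dl : ℕ} (hDl : 0 < Dl) (o R NR : ℕ) (act : ℕ → Prop)
    [DecidablePred act] : (roundsA Dl o R NR act).card ≤ R * Dl := by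
  classical
  have hmap : ∀ κ ∈ roundsA Dl o R NR act,
      (rk act (blk Dl o κ), (κ + o) % Dl) ∈ range R ×ˢ range Dl := by
    intro κ hκ
    obtain ⟨-, -, h3⟩ := mem_roundsA.1 hκ
    exact mem_product.2 ⟨mem_range.2 h3, mem_range.2 (Nat.mod_lt _ hDl)⟩
  have hinj : Set.InjOn (fun κ => (rk act (blk Dl o κ), (κ + o) % Dl))
      (roundsA Dl o R NR act) := by
    intro κ hκ κ' hκ' he
    obtain ⟨-, h2, -⟩ := mem_roundsA.1 hκ
    obtain ⟨-, h2', -⟩ := mem_roundsA.1 hκ'
    simp only [Prod.mk.injEq] at he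
    have h4 := rk_inj h2 h2' he.1
    unfold blk at h4
    have e1 := Nat.div_add_mod (κ + o) Dl
    have e2 := Nat.div_add_mod (κ' + o) Dl
    rw [h4, he.2] at e1
    omega
  have := card_le_card_of_injOn _ hmap hinj
  rw [card_product, card_range, card_range] at this
  exact this

/-- **The failure event** of the machines with entry `a0` and exit `b0`: for one of them and one
of the rounds of its active blocks, all samples cost more than the mean plus `d`. -/
def FailTopA (K h Tu g NL Dl R T Sh Cc μ B a a0 b0 Sm NR : ℕ) (Bd d : ℝ)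
    (D : ℕ → ℕ → ℕ → ℕ → ℕ → ℕ) (coin : ℕ → ℕ) : Prop :=
  ∃ l < NL, ∃ o < Dl, ∃ r < R, FailP Sm T (fun _ r' => r') d
    (roundsA Dl o R NR (actD (K + 2) (2 * K * g + 1) (a0 * K) (b0 * K) Dl o
      (cdiv (K * Tu) (2 ^ l)) (cdiv (K * Tu) (2 ^ (l + 1))) (nodeD K Tu g μ B a D)))
    (pcB K h Tu g NL Dl R T Sh Cc μ B a Bd (encQ g NL Dl R a0 b0 l o r 0) D) coin

section

variable {K h Tu g NL Dl R T Sh Cc μ B a a0 b0 Sm NR : ℕ} {Bd d : ℝ}

/-- **A good sample.** Outside the failure event every machine has, in every round `κ < NR` of its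
active blocks in which the mean cost is at most `Bd`, a sample `sm` whose stored path costs at most
the mean plus `d`. -/
theorem exists_sampleA {D : ℕ → ℕ → ℕ → ℕ → ℕ → ℕ} {coin : ℕ → ℕ}
    (hF : ¬ FailTopA K h Tu g NL Dl R T Sh Cc μ B a a0 b0 Sm NR Bd d D coin) {l o r κ : ℕ}
    (hl : l < NL) (ho : o < Dl) (hr : r < R) (hκ : κ < NR)
    (hact : actD (K + 2) (2 * K * g + 1) (a0 * K) (b0 * K) Dl o
      (cdiv (K * Tu) (2 ^ l)) (cdiv (K * Tu) (2 ^ (l + 1))) (nodeD K Tu g μ B a D) (blk Dl o κ))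
    (hrk : rk (actD (K + 2) (2 * K * g + 1) (a0 * K) (b0 * K) Dl o
      (cdiv (K * Tu) (2 ^ l)) (cdiv (K * Tu) (2 ^ (l + 1))) (nodeD K Tu g μ B a D))
        (blk Dl o κ) < R)
    (hle : (∑ n ∈ range T, pcT K h Tu g NL Dl R T Sh Cc μ B a
      (encQ g NL Dl R a0 b0 l o r 0) D κ n) / T ≤ Bd) :
    ∃ sm < Sm, pcT K h Tu g NL Dl R T Sh Cc μ B a (encQ g NL Dl R a0 b0 l o r 0) D κ
        (coin sm % T) ≤
      (∑ n ∈ range T, pcT K h Tu g NL Dl R T Sh Cc μ B a
        (encQ g NL Dl R a0 b0 l o r 0) D κ n) / T + d := by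
  by_contra hcon
  push Not at hcon
  refine hF ⟨l, hl, o, ho, r, hr, κ, mem_roundsA.2 ⟨hκ, hact, hrk⟩, fun sm hsm => ?_⟩
  rw [pcB_eq hle]
  exact hcon sm hsm

end

section prob

variable {n M S Cn q : ℕ}

/-- **Probability of the failure event** of one region and one scale; `NR` is arbitrary. -/
theorem failTopA_prob (J : ℕ) (P : Par) (mc : Mach) (vis hid : Leaf) (hq : 0 < q)
    {K h Tu g NL Dl R T Sh Cc μ B a' a0 b0 Sm NR : ℕ} {Bd d : ℝ} (hTq : T ∣ q) {j s : ℕ}
    (hj : 0 < j) (hjn : j < n + 1) (hs : s < S) (i a : ℕ) (hSm : Sm ≤ Cn) (hBd : 0 ≤ Bd)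
    (hd : 0 < d) :
    av (fun w : Ix n M S Cn → Fin q => Acc.ind
      (FailTopA K h Tu g NL Dl R T Sh Cc μ B a' a0 b0 Sm NR Bd d
        (ownHist J P mc vis hid j i a s w) ((toRnd J w).coin j s))) ≤
      NL * Dl * R * (((R * Dl : ℕ) : ℝ) * (Bd / (Bd + d)) ^ Sm) := by
  have key := fail_region (n := n) (M := M) (S := S) (Cn := Cn) J P mc vis hid hq hTq hj hjn hs i a
    (range NL ×ˢ (range Dl ×ˢ range R)) (Sm := Sm) (num := fun _ _ r => r)
    (fun _ _ _ r hr => lt_of_lt_of_le hr hSm) (fun _ _ _ _ _ _ _ h => h)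
    (fun I D κ t => pcB K h Tu g NL Dl R T Sh Cc μ B a' Bd
      (encQ g NL Dl R a0 b0 I.1 I.2.1 I.2.2 0) D κ t)
    (fun I _ w κ t _ => pcB_nonneg _ _ _ _) (B := Bd) (d := d)
    (fun I _ w κ => pcB_mean hBd _ _ _) hd
    (fun I D => roundsA Dl I.2.1 R NR (actD (K + 2) (2 * K * g + 1) (a0 * K) (b0 * K) Dl I.2.1
      (cdiv (K * Tu) (2 ^ I.1)) (cdiv (K * Tu) (2 ^ (I.1 + 1))) (nodeD K Tu g μ B a' D)))
    (m := R * Dl) (fun I hI _ => card_roundsA_le (lt_of_le_of_lt (Nat.zero_le _)
      (mem_range.1 (mem_product.1 (mem_product.1 hI).2).1)) _ _ _ _)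
    (fun w => FailTopA K h Tu g NL Dl R T Sh Cc μ B a' a0 b0 Sm NR Bd d
        (ownHist J P mc vis hid j i a s w) ((toRnd J w).coin j s))
    (fun w hw => by
      obtain ⟨l, hl, o, ho, r, hr, hF⟩ := hw
      exact ⟨(l, o, r), by simp [hl, ho, hr], hF⟩)
  refine key.trans (le_of_eq ?_)
  rw [Finset.card_product, Finset.card_product, card_range, card_range, card_range]
  push_cast
  ring

end prob

end Vale.Agent.P315.H423
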