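import Vale.Agent.P315.H423.FailAct
import Vale.Agent.P315.H508.Plug
import Vale.Agent.P315.C.Fam

/-!
P315, query theorem (helper423): the row of the failures for the family `C.fam`.
-/

set_option autoImplicit false

open Finset Filter

namespace Vale.Agent.P315.H423

open C
open H731 (av)
open Vale.Agent.P315.Acc (ind)
open H659 (ownHist toRnd)
open H508 (dl)

/-- Only an upper bound `NR'` for the number of the rounds is needed. -/
theorem failTopA_mono {K h Tu g NL Dl R T Sh Cc μ B a a0 b0 Sm NR NR' : ℕ} {Bd d : ℝ}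
    {D : ℕ → ℕ → ℕ → ℕ → ℕ → ℕ} {coin : ℕ → ℕ} (hN : NR ≤ NR')
    (hF : FailTopA K h Tu g NL Dl R T Sh Cc μ B a a0 b0 Sm NR Bd d D coin) :
    FailTopA K h Tu g NL Dl R T Sh Cc μ B a a0 b0 Sm NR' Bd d D coin := by
  obtain ⟨l, hl, o, ho, r, hr, κ, hκ, h⟩ := hF
  obtain ⟨h1, h2, h3⟩ := mem_roundsA.1 hκ
  exact ⟨l, hl, o, ho, r, hr, κ, mem_roundsA.2 ⟨h1.trans_le hN, h2, h3⟩, h⟩

/-- Number of the machines times the number of the rounds that matter. -/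
def failQ (m s : ℕ) : ℕ := (famMP m).NL s * (famMP m).Dl s * (famMP m).R s

/-- Bound for the failure probability of a top of scale `s`. -/
noncomputable def failp (m s : ℕ) : ℝ :=
  (failQ m s : ℝ) * ((((famMP m).R s * (famMP m).Dl s : ℕ) : ℝ) *
    (2 / (2 + dl m s)) ^ (2 ^ (4 * (m * 2 ^ s))))

theorem failp_nonneg (m s : ℕ) : 0 ≤ failp m s := by
  have := H508.dl_pos m s
  unfold failp
  positivity

/-- The numbers. -/
theorem failp_sum {ε : ℝ} (hε : 0 < ε) : ∀ᶠ m : ℕ in atTop, ∀ T : Finset ℕ,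
    ∑ s ∈ T, failp m s ≤ ε := by
  filter_upwards [H508.fail_num 3 (Bd := 2) one_le_two hε, H508.nat_poly_le (20 * 2 ^ 10) 512 5]
    with m h1 h2 T
  refine h1 T (failQ m) (fun s => (famMP m).R s * (famMP m).Dl s) (fun _ => 2) (fun s => dl m s)
    (fun _ _ => zero_le_two) (fun s _ => H508.dl_pos m s) (fun s _ => le_rfl) fun s _ => ?_
  have h3 := h2 s
  show 20 * m * 2 ^ s * (16 ^ s * m ^ 2) * 2 ^ (m * 2 ^ s + 5) *
    (2 ^ (m * 2 ^ s + 5) * (16 ^ s * m ^ 2)) ≤ _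
  have e1 : 20 * m * 2 ^ s * (16 ^ s * m ^ 2) * 2 ^ (m * 2 ^ s + 5) *
      (2 ^ (m * 2 ^ s + 5) * (16 ^ s * m ^ 2)) =
      (20 * 2 ^ 10 * m ^ 5 * 512 ^ s) * (2 ^ (m * 2 ^ s) * 2 ^ (m * 2 ^ s)) := by
    have e2 : (512 : ℕ) ^ s = 2 ^ s * 16 ^ s * 16 ^ s := by
      rw [← mul_pow, ← mul_pow]; norm_num
    rw [e2, pow_add]
    ring
  rw [e1]
  calc _ ≤ 2 ^ (m * 2 ^ s) * (2 ^ (m * 2 ^ s) * 2 ^ (m * 2 ^ s)) := Nat.mul_le_mul_right _ h3
    _ = 2 ^ (3 * (m * 2 ^ s)) := by ring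

/-- The probability of the failure of one top. -/
theorem failTopA_fam {m k cd n S ℓ μ B : ℕ} (vis hid : Leaf) {s J : ℕ} (hs : s ≤ S) (hJ : 0 < J)
    (hJn : J ≤ n) (i lb : ℕ) {K h Tu g' Cc a' a0 b0 NR : ℕ} {Bd d : ℝ} (hBd : 0 ≤ Bd)
    (hd : 0 < d) (hr : Bd * dl m s ≤ 2 * d) :
    av (fun w : (fam m k cd n S ℓ μ B).Seed => ind
      (FailTopA K h Tu g' ((famMP m).NL s) ((famMP m).Dl s) ((famMP m).R s) ((famMP m).T s)
        ((famMP m).Sh s) Cc μ B a' a0 b0 ((famMP m).Sm s) NR Bd d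
        (ownHist (fam m k cd n S ℓ μ B).P.J (fam m k cd n S ℓ μ B).P (fam m k cd n S ℓ μ B).mc
          vis hid J i lb s w)
        ((toRnd (fam m k cd n S ℓ μ B).P.J w).coin J s))) ≤ failp m s := by
  refine (failTopA_prob (n := n) (M := 2 ^ (20 * m)) (S := S + 1)
    (Cn := (fam m k cd n S ℓ μ B).Cn) (fam m k cd n S ℓ μ B).P.J (fam m k cd n S ℓ μ B).P
    (fam m k cd n S ℓ μ B).mc vis hid fam_q_pos (fam_T_dvd hs) hJ (by omega) (by omega) i lb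
    (fam_Sm_le hs) hBd hd).trans ?_
  have hdl := H508.dl_pos m s
  have h0 : 0 ≤ Bd / (Bd + d) := div_nonneg hBd (by linarith)
  have h1 : Bd / (Bd + d) ≤ 2 / (2 + dl m s) := H508.ratio_le hBd hd two_pos hdl.le hr
  have e1 : (famMP m).Sm s = 2 ^ (4 * (m * 2 ^ s)) := by
    show 2 ^ (4 * m * 2 ^ s) = _
    rw [mul_assoc]
  have h2 : (Bd / (Bd + d)) ^ ((famMP m).Sm s) ≤
      (2 / (2 + dl m s)) ^ (2 ^ (4 * (m * 2 ^ s))) := by
    rw [e1]
    exact pow_le_pow_left₀ h0 h1 _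
  unfold failp failQ
  push_cast
  gcongr

/-- **The row of the failures**: `Fail` may be any event which is contained, for every top, in the
failure event `FailTopA` of its machines. -/
theorem fail_row {ε : ℝ} (hε : 0 < ε) : ∀ᶠ m : ℕ in atTop, ∀ (k cd n S ℓ μ B : ℕ)
    (vis hid : Leaf) (C : H808.Chain (fam m k cd n S ℓ μ B).P vis hid (fam m k cd n S ℓ μ B).n)
    [Nonempty (Fin ((fam m k cd n S ℓ μ B).P.M ^ (fam m k cd n S ℓ μ B).n))]
    (K : H808.CutPar (fam m k cd n S ℓ μ B) C) (η : ℝ)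
    (hI : Inst (fam m k cd n S ℓ μ B).P vis hid (fam m k cd n S ℓ μ B).n η C),
    K.smax ≤ S → ∀ Fail : (fam m k cd n S ℓ μ B).Seed → ℕ → ℕ →
      Fin ((fam m k cd n S ℓ μ B).P.M ^ (fam m k cd n S ℓ μ B).n) → Prop,
    (∀ s ∈ Icc 1 K.smax, ∀ a < n / 2 ^ s, ∀ x,
      ∃ (J i lb K0 h Tu g' Cc a' a0 b0 NR : ℕ) (Bd d : ℝ), 0 < J ∧ J ≤ n ∧ 0 ≤ Bd ∧ 0 < d ∧
        Bd * dl m s ≤ 2 * d ∧ ∀ w, Fail w s a x →
        FailTopA K0 h Tu g' ((famMP m).NL s) ((famMP m).Dl s) ((famMP m).R s) ((famMP m).T s)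
          ((famMP m).Sh s) Cc μ B a' a0 b0 ((famMP m).Sm s) NR Bd d
          (ownHist (fam m k cd n S ℓ μ B).P.J (fam m k cd n S ℓ μ B).P (fam m k cd n S ℓ μ B).mc
            vis hid J i lb s w)
          ((toRnd (fam m k cd n S ℓ μ B).P.J w).coin J s)) →
    av (fun w => ∑ s ∈ Icc 1 K.smax,
      2 ^ s * H295.TA (K.sys hI w) s (fun a x => ind (Fail w s a x))) ≤
      ε * (fam m k cd n S ℓ μ B).n := by
  filter_upwards [failp_sum hε] with m hm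
  intro k cd n S ℓ μ B vis hid C _ K η hI hS Fail hFail
  have hne : Nonempty (fam m k cd n S ℓ μ B).Seed := ⟨fun _ => ⟨0, fam_q_pos⟩⟩
  refine H508.fails_plug (fun w => K.sys hI w)
    (fun x : Fin ((fam m k cd n S ℓ μ B).P.M ^ (fam m k cd n S ℓ μ B).n) => C.w x)
    (fun x => C.w_pos x) n K.smax (fun _ => rfl) (fun _ => rfl) (p := failp m)
    (fun s _ => failp_nonneg m s) (fun s hs a ha x => ?_) (hm _)
  obtain ⟨J, i, lb, K0, h, Tu, g', Cc, a', a0, b0, NR, Bd, d, h1, h2, h3, h4, h5, h6⟩ :=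
    hFail s hs a ha x
  refine (H731.av_mono fun w => Acc.ind_mono (h6 w)).trans ?_
  exact failTopA_fam vis hid ((mem_Icc.1 hs).2.trans hS) h1 h2 i lb h3 h4 h5

end Vale.Agent.P315.H423
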